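import Vale.Agent.Lib.P184.CatZeroGroup
import Vale.Agent.Lib.P089.TorsionFree

/-!
# P089: idempotents of the summable group algebra of a torsion-free `CAT(0)` group

Let `G` be a torsion-free group acting by isometries, metrically properly and cocompactly, on a
non-empty metric space satisfying the `CN` inequality of Bruhat and Tits (a `CAT(0)` group).
For the Banach algebra of absolutely summable functions on `G` with convolution, a dense
subalgebra of the reduced group `C*`-algebra of `G`, two statements are proved which surjectivity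
of the Baum-Connes assembly map would imply for the whole reduced `C*`-algebra:

* the canonical trace `∑ i, e i i 1` of every idempotent `q × q` matrix `e` over this algebra is
  a natural number at most `q`;
* the algebra has no idempotents other than zero and the unit.

The proof combines the vanishing of the Hattori-Stallings traces at all non-trivial conjugacy
classes (proved in the files for P184 by twisting idempotents) with the multiplicativity of the
augmentation and with the theorem of Kaplansky on the faithfulness of the canonical trace.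
-/

namespace Vale.Agent.Results.P089.CatZeroIdempotents

open scoped BigOperators

theorem result {G : Type*} [Group G] {X : Type*} [MetricSpace X] [Nonempty X]
    [MulAction G X] [IsIsometricSMul G X]
    (htf : ∀ g : G, IsOfFinOrder g → g = 1)
    (hCN : ∀ x y : X, ∃ m : X, ∀ z : X,
      dist z m ^ 2 ≤ (dist z x ^ 2 + dist z y ^ 2) / 2 - dist x y ^ 2 / 4)
    (hproper : ∀ (x : X) (R : ℝ), {γ : G | dist (γ • x) x ≤ R}.Finite)
    (C : Set X) (hC : IsCompact C) (hcocompact : ∀ x : X, ∃ γ : G, γ • x ∈ C) :
    (∀ (q : ℕ) (e : Fin q → Fin q → G → ℂ),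
      (∀ i j, Summable (fun x => ‖e i j x‖)) →
      (∀ i j x, ∑ l, ∑' y, e i l y * e l j (y⁻¹ * x) = e i j x) →
      ∃ n : ℕ, n ≤ q ∧ ∑ i, e i i 1 = (n : ℂ)) ∧
    (∀ e : G → ℂ, Summable (fun x => ‖e x‖) →
      (∀ x, ∑' y, e y * e (y⁻¹ * x) = e x) →
      (∀ x, e x = 0) ∨ (e 1 = 1 ∧ ∀ x, x ≠ 1 → e x = 0)) := by
  have key : ∀ (q : ℕ) (e : Fin q → Fin q → G → ℂ),
      (∀ i j, Summable (fun x => ‖e i j x‖)) →
      (∀ i j x, ∑ l, ∑' y, e i l y * e l j (y⁻¹ * x) = e i j x) →
      ∃ n : ℕ, n ≤ q ∧ ∑ i, e i i 1 = (n : ℂ) := fun q e hs hi =>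
    Vale.Agent.Lib.P089.trace_nat_of_class_vanishing htf q e hs hi
      (Vale.Agent.Lib.P184.cn_proper_cocompact_bass hCN hproper C hC hcocompact q e hs hi)
  exact ⟨key, fun e he hidem =>
    Vale.Agent.Lib.P089.idem_of_matrix_trace_nat (key 1) e he hidem⟩

end Vale.Agent.Results.P089.CatZeroIdempotents
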