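import Vale.Agent.Lib.P184.FineNil2
import Vale.Agent.Lib.P089.TorsionFree

/-!
# P089: idempotents of the summable group algebra of torsion-free relatively hyperbolic groups

Let a torsion-free group `Γ` act by graph automorphisms on a connected simple graph `K` which is
hyperbolic (four-point condition) and fine (every edge lies on finitely many circuits of each
length), with finite edge stabilisers and finitely many orbits of edges; by the definition of
Bowditch, `Γ` is hyperbolic relative to its infinite vertex stabilisers.  Assume that every vertex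
stabiliser is finitely generated virtually abelian, or a `CAT(0)` group, or finitely generated
nilpotent of class at most two, or has a homomorphism with finite kernel to a generalised real
Heisenberg group (the four alternatives are spelled out as in the hand-in `RelHypNilpotent` of
P184).  For the Banach algebra of absolutely summable functions on `Γ` with convolution, a dense
subalgebra of the reduced group `C*`-algebra of `Γ`, two statements are proved which surjectivity
of the Baum-Connes assembly map would imply for the whole reduced `C*`-algebra: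

* the canonical trace `∑ i, e i i 1` of every idempotent `q × q` matrix `e` over this algebra is
  a natural number at most `q`;
* the algebra has no idempotents other than zero and the unit.
-/

namespace Vale.Agent.Results.P089.RelHypIdempotents

open scoped BigOperators

universe u v w

theorem result {Γ : Type u} {V : Type v} [Group Γ] [MulAction Γ V] (K : SimpleGraph V)
    (htf : ∀ g : Γ, IsOfFinOrder g → g = 1)
    (hconn : K.Connected)
    (hact : ∀ (γ : Γ) (u w : V), K.Adj u w → K.Adj (γ • u) (γ • w))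
    (δ : ℝ) (hδ : ∀ x y z w : V, (K.dist x z : ℝ) + K.dist y w
      ≤ max ((K.dist x y : ℝ) + K.dist z w) ((K.dist x w : ℝ) + K.dist y z) + 2 * δ)
    (hfine : ∀ (u w : V), K.Adj u w → ∀ n : ℕ,
      {p : K.Walk u u | p.IsCycle ∧ s(u, w) ∈ p.edges ∧ p.length ≤ n}.Finite)
    (hstab : ∀ u w : V, K.Adj u w → {γ : Γ | γ • u = u ∧ γ • w = w}.Finite)
    (hcocpt : ∃ F : Finset (V × V), ∀ u w : V, K.Adj u w → ∃ γ : Γ, (γ • u, γ • w) ∈ F)
    (hper : ∀ v : V,
      (∃ A : Subgroup Γ, (∀ a ∈ A, ∀ b ∈ A, a * b = b * a) ∧ A.FG ∧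
        ∃ T : Finset Γ, ∀ h : Γ, h • v = v → ∃ t ∈ T, t⁻¹ * h ∈ A) ∨
      (∃ (X : Type w) (_ : MetricSpace X) (_ : MulAction (MulAction.stabilizer Γ v) X),
        Nonempty X ∧
        (∀ (p : MulAction.stabilizer Γ v) (x y : X), dist (p • x) (p • y) = dist x y) ∧
        (∀ x y : X, ∃ m : X, ∀ z : X,
          dist z m ^ 2 ≤ (dist z x ^ 2 + dist z y ^ 2) / 2 - dist x y ^ 2 / 4) ∧
        (∀ (x : X) (R : ℝ), {p : MulAction.stabilizer Γ v | dist (p • x) x ≤ R}.Finite) ∧
        ∃ C : Set X, IsCompact C ∧ ∀ x : X, ∃ p : MulAction.stabilizer Γ v, p • x ∈ C) ∨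
      ((MulAction.stabilizer Γ v).FG ∧
        ∀ x y z : Γ, x • v = v → y • v = v → z • v = v →
          x * y * x⁻¹ * y⁻¹ * z = z * (x * y * x⁻¹ * y⁻¹)) ∨
      (∃ (m : ℕ) (a b : Fin m → MulAction.stabilizer Γ v → ℝ)
          (c : MulAction.stabilizer Γ v → ℝ),
        (∀ i x y, a i (x * y) = a i x + a i y) ∧ (∀ i x y, b i (x * y) = b i x + b i y) ∧
        (∀ x y, c (x * y) = c x + c y + ∑ i, a i x * b i y) ∧
        {x : MulAction.stabilizer Γ v | (∀ i, a i x = 0 ∧ b i x = 0) ∧ c x = 0}.Finite)) :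
    (∀ (q : ℕ) (e : Fin q → Fin q → Γ → ℂ),
      (∀ i j, Summable (fun x => ‖e i j x‖)) →
      (∀ i j x, ∑ l, ∑' y, e i l y * e l j (y⁻¹ * x) = e i j x) →
      ∃ n : ℕ, n ≤ q ∧ ∑ i, e i i 1 = (n : ℂ)) ∧
    (∀ e : Γ → ℂ, Summable (fun x => ‖e x‖) →
      (∀ x, ∑' y, e y * e (y⁻¹ * x) = e x) →
      (∀ x, e x = 0) ∨ (e 1 = 1 ∧ ∀ x, x ≠ 1 → e x = 0)) := by
  have key : ∀ (q : ℕ) (e : Fin q → Fin q → Γ → ℂ),
      (∀ i j, Summable (fun x => ‖e i j x‖)) →
      (∀ i j x, ∑ l, ∑' y, e i l y * e l j (y⁻¹ * x) = e i j x) →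
      ∃ n : ℕ, n ≤ q ∧ ∑ i, e i i 1 = (n : ℂ) := fun q e hs hi =>
    Vale.Agent.Lib.P089.trace_nat_of_class_vanishing htf q e hs hi
      (Vale.Agent.Lib.P184.fine_nil2_bass K hconn hact δ hδ hfine hstab hcocpt hper q e hs hi)
  exact ⟨key, fun e he hidem =>
    Vale.Agent.Lib.P089.idem_of_matrix_trace_nat (key 1) e he hidem⟩

end Vale.Agent.Results.P089.RelHypIdempotents
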